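import Vale.Agent.P233.Main

open MeasureTheory Vale.Agent.P233
open scoped ContDiff RealInnerProductSpace

namespace Vale.Agent.Results.P233.Conformal

/-- A conformally flat metric with a continuous factor of class `W^{1,2}` and distributional
sectional curvature at least `κ ≥ 0` is a locally uniform limit of smooth conformally flat metrics
with sectional curvature at least `κ`. -/
theorem result (E : Type) [NormedAddCommGroup E] [InnerProductSpace ℝ E] [FiniteDimensional ℝ E]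
    [MeasurableSpace E] [BorelSpace E] (Ω : Set E) (hΩ : IsOpen Ω) (κ : ℝ) (hκ : 0 ≤ κ)
    (v : E → ℝ) (w : E → E) (hv : Continuous v) (v0 : ∀ y, 0 < v y) (hw : LocallyIntegrable w)
    (hq : LocallyIntegrable fun y => (‖w y‖ ^ 2 + κ) / v y) (h1 : WGrad Ω v w)
    (h2 : DSec Ω κ v w) (K : Set E) (hK : IsCompact K) (hKΩ : K ⊆ Ω) (ε : ℝ) (hε : 0 < ε) :
    ∃ u : E → ℝ, ContDiff ℝ ∞ u ∧ (∀ x, 0 < u x) ∧ (∀ x ∈ K, |u x - v x| ≤ ε) ∧
      ∀ x ∈ K, ∀ X Y : E, ‖X‖ = 1 → ‖Y‖ = 1 → ⟪X, Y⟫ = 0 → κ ≤ sec u x X Y :=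
  main hΩ hκ hv v0 hw hq h1 h2 hK hKΩ hε

end Vale.Agent.Results.P233.Conformal
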